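import Vale.Agent.P315.C.AreaQ
import Vale.Agent.P315.H95.Label

/-!
P315, milestone 2: the area of the read sets over the geometry `clsPar` (boxes with classes).

`Fs` = all cells which are read for the regions of level `j` in the slab `i`, of any class
`κ' ≤ Kc`, with the box inside `[x, y]`, with any accumulated variation `α' ≥ α + |κ' - κ|`, at the
index `b - D1 * (α' - α)`. The bound for the family is proportional to `y - x`; the number of
classes does not enter the exponential rate. A cell of class `κ` has weight `2 ^ κ`.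
-/

set_option autoImplicit false

namespace Vale.Agent.P315.C2

open Vale.Agent.P315.C Vale.Agent.P315.H95 Finset
open Vale.Agent.P315.H123 (Wt Wt_split Wt_nonneg Xi_one sum_biUnion_le')
open Vale.Agent.P315.C.Area (xs Xi_conv PenOK rd_sub ln ln_desc sc sc_spec mem_sc rd_mono)

/-! ### Two geometric sums -/

theorem sum_quarter (κ N : ℕ) :
    ∑ κ' ∈ range N, (1 / 4 : ℝ) ^ Nat.dist κ' κ ≤ 5 / 3 := by
  have h1 : ∀ N ≤ κ + 1, ∑ κ' ∈ range N, (1 / 4 : ℝ) ^ Nat.dist κ' κ ≤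
      4 / 3 * (1 / 4 : ℝ) ^ (κ + 1 - N) := by
    intro N
    induction N with
    | zero => intro _; simp
    | succ N ih =>
      intro hN
      have h2 := ih (by omega)
      rw [sum_range_succ]
      have h3 : Nat.dist N κ = κ - N := Nat.dist_eq_sub_of_le (by omega)
      have h4 : κ + 1 - N = (κ - N) + 1 := by omega
      have h5 : κ + 1 - (N + 1) = κ - N := by omega
      rw [h4, pow_succ] at h2
      rw [h3, h5]
      linarith
  have h2 : ∀ t, ∑ κ' ∈ range (κ + 1 + t), (1 / 4 : ℝ) ^ Nat.dist κ' κ ≤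
      5 / 3 - 1 / 3 * (1 / 4 : ℝ) ^ t := by
    intro t
    induction t with
    | zero =>
      have := h1 (κ + 1) le_rfl
      simp at this ⊢
      linarith
    | succ t ih =>
      rw [← add_assoc, sum_range_succ]
      have h3 : Nat.dist (κ + 1 + t) κ = t + 1 := by
        rw [Nat.dist_comm, Nat.dist_eq_sub_of_le (by omega)]; omega
      rw [h3]
      have h4 : (1 / 4 : ℝ) ^ t = 4 * (1 / 4 : ℝ) ^ (t + 1) := by rw [pow_succ]; ring
      rw [h4] at ih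
      linarith
  rcases Nat.lt_or_ge N (κ + 1) with h | h
  · refine (h1 N h.le).trans ?_
    have : (1 / 4 : ℝ) ^ (κ + 1 - N) ≤ 1 := pow_le_one₀ (by norm_num) (by norm_num)
    linarith
  · obtain ⟨t, rfl⟩ := Nat.exists_eq_add_of_le h
    refine (h2 t).trans ?_
    have : (0 : ℝ) ≤ (1 / 4 : ℝ) ^ t := by positivity
    linarith

/-- Geometric tail. -/
theorem sum_quarter_tail (A α d : ℕ) :
    ∑ u ∈ (range A).filter (fun u => α + d ≤ u), (1 / 4 : ℝ) ^ (u - α) ≤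
      4 / 3 * (1 / 4 : ℝ) ^ d := by
  have h : ∀ A, ∑ u ∈ (range A).filter (fun u => α + d ≤ u), (1 / 4 : ℝ) ^ (u - α) ≤
      4 / 3 * (1 / 4 : ℝ) ^ d - 4 / 3 * (1 / 4 : ℝ) ^ (max (α + d) A - α) := by
    intro A
    induction A with
    | zero => simp
    | succ A ih =>
      rw [range_add_one, filter_insert]
      split_ifs with hA
      · rw [sum_insert (by simp)]
        rw [max_eq_right hA] at ih
        rw [max_eq_right (by omega : α + d ≤ A + 1)]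
        have h1 : A + 1 - α = (A - α) + 1 := by omega
        rw [h1, pow_succ]
        linarith
      · push Not at hA
        rw [max_eq_left hA.le] at ih
        rw [max_eq_left (by omega : A + 1 ≤ α + d)]
        exact ih
  refine (h A).trans ?_
  have : (0 : ℝ) ≤ (1 / 4 : ℝ) ^ (max (α + d) A - α) := by positivity
  linarith

/-! ### Weights of cells -/

/-- Weight of a set of cells: a cell of class `κ` counts `2 ^ κ`. -/
noncomputable def wS (S : Finset (ℕ × ℕ)) : ℝ := ∑ e ∈ S, (2 : ℝ) ^ cl e.2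

theorem wS_nonneg (S : Finset (ℕ × ℕ)) : 0 ≤ wS S := Finset.sum_nonneg fun _ _ => by positivity

theorem wS_empty : wS ∅ = 0 := by simp [wS]

theorem wS_mono {S T : Finset (ℕ × ℕ)} (h : S ⊆ T) : wS S ≤ wS T :=
  Finset.sum_le_sum_of_subset_of_nonneg h fun _ _ _ => by positivity

theorem wS_biUnion {α : Type*} (s : Finset α) (f : α → Finset (ℕ × ℕ)) :
    wS (s.biUnion f) ≤ ∑ a ∈ s, wS (f a) :=
  sum_biUnion_le' _ (fun _ => by positivity) _ _

theorem wS_union (S T : Finset (ℕ × ℕ)) : wS (S ∪ T) ≤ wS S + wS T := by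
  unfold wS
  have := Finset.sum_union_inter (s₁ := S) (s₂ := T) (f := fun e : ℕ × ℕ => (2 : ℝ) ^ cl e.2)
  have h2 : 0 ≤ ∑ e ∈ S ∩ T, (2 : ℝ) ^ cl e.2 := Finset.sum_nonneg fun _ _ => by positivity
  linarith

theorem card_le_wS (S : Finset (ℕ × ℕ)) : (S.card : ℝ) ≤ wS S := by
  unfold wS
  rw [Finset.card_eq_sum_ones, Nat.cast_sum]
  refine Finset.sum_le_sum fun e _ => ?_
  rw [Nat.cast_one]
  exact one_le_pow₀ (by norm_num)

/-! ### The family of read sets -/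

/-- Half the width of the boxes of class `κ` at level `j`, in units of `w0`. -/
abbrev Wu (m κ j : ℕ) : ℕ := wd m 1 j κ

theorem Wu_pos (m κ j : ℕ) : 0 < Wu m κ j := wd_pos one_pos j κ

theorem Wu_add (m κ j e : ℕ) : Wu m κ (j + e) = Wu m κ j * (2 ^ m) ^ e := by
  unfold Wu wd; rw [pow_add]; ring

/-- Positions of the boxes of half width `W` inside `[x, y]`. -/
def pos (W x y : ℕ) : Finset ℕ := (range (y + 1)).filter fun k => x ≤ k * W ∧ (k + 2) * W ≤ y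

theorem card_pos_mul (W x y : ℕ) : (pos W x y).card * W ≤ y - x := by
  rcases (pos W x y).eq_empty_or_nonempty with h | h
  · simp [h]
  obtain ⟨k0, hk0, hmin⟩ := (pos W x y).exists_min_image id h
  obtain ⟨k1, hk1, hmax⟩ := (pos W x y).exists_max_image id h
  have h0 := (mem_filter.1 hk0).2
  have h1 := (mem_filter.1 hk1).2
  have hsub : pos W x y ⊆ Icc k0 k1 := fun k hk => mem_Icc.2 ⟨hmin k hk, hmax k hk⟩
  have hc := card_le_card hsub
  rw [Nat.card_Icc] at hc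
  have hle : k0 ≤ k1 := hmin k1 hk1
  have e1 : (k1 + 1 - k0) * W ≤ y - x := by
    have e2 : (k1 + 1 - k0) * W = (k1 + 1) * W - k0 * W := Nat.sub_mul _ _ _
    have e3 : (k1 + 2) * W = (k1 + 1) * W + W := by ring
    omega
  exact (Nat.mul_le_mul_right _ hc).trans e1

/-- Cells read for all regions in slab `i` with the box inside `[x, y]`, any class `κ' ≤ Kc`, any
accumulated variation `α' ≥ α + |κ' - κ|`, at the index `b - D * (α' - α)`. -/
def Fs (m Kc D Aj : ℕ) (rd : RSet) (j x y κ α i : ℕ) (b : ℤ) : Finset (ℕ × ℕ) :=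
  (range (Kc + 1)).biUnion fun κ' => (pos (Wu m κ' j) x y).biUnion fun k' =>
    ((range (Aj + 1)).filter fun α' => α + Nat.dist κ' κ ≤ α').biUnion fun α' =>
      rd i (enc κ' k' α') (b - (D * (α' - α) : ℕ))

theorem mem_Fs {m Kc D Aj : ℕ} {rd : RSet} {j x y κ α i : ℕ} {b : ℤ} {e : ℕ × ℕ} :
    e ∈ Fs m Kc D Aj rd j x y κ α i b ↔ ∃ κ' ≤ Kc, ∃ k' ∈ pos (Wu m κ' j) x y, ∃ α' ≤ Aj,
      α + Nat.dist κ' κ ≤ α' ∧ e ∈ rd i (enc κ' k' α') (b - (D * (α' - α) : ℕ)) := by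
  unfold Fs
  simp only [mem_biUnion, mem_range, mem_filter, Nat.lt_succ_iff]
  constructor
  · rintro ⟨κ', h1, k', h2, α', ⟨h3, h4⟩, h5⟩
    exact ⟨κ', h1, k', h2, α', h3, h4, h5⟩
  · rintro ⟨κ', h1, k', h2, α', h3, h4, h5⟩
    exact ⟨κ', h1, k', h2, α', ⟨h3, h4⟩, h5⟩

theorem mem_pos_of {W x y k : ℕ} (hW : 0 < W) (h1 : x ≤ k * W) (h2 : (k + 2) * W ≤ y) :
    k ∈ pos W x y := by
  refine mem_filter.2 ⟨mem_range.2 ?_, h1, h2⟩
  have : k ≤ (k + 2) * W := by nlinarith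
  omega

/-- A region is one of the family of its own box. -/
theorem rd_subset_Fs {m Kc D : ℕ} (rd : RSet) (j i u : ℕ) (b : ℤ) (h1 : cl u ≤ Kc) :
    rd i u b ⊆ Fs m Kc D (ac u) rd j (bx u * Wu m (cl u) j) ((bx u + 2) * Wu m (cl u) j) (cl u)
      (ac u) i b := by
  intro e he
  rw [mem_Fs]
  refine ⟨cl u, h1, bx u, mem_pos_of (Wu_pos m _ _) le_rfl le_rfl, ac u, le_rfl, ?_, ?_⟩
  · rw [Nat.dist_self, add_zero]
  · rw [enc_eta, Nat.sub_self, mul_zero]; simpa using he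

/-- The sum of the widths of the regions of a family, discounted by the penalties. -/
theorem sum_family {m lam : ℝ} {mm D : ℕ} (hD : Real.exp (-lam * D) ≤ 1 / 4) (Kc Aj j x y κ α : ℕ)
    (hm : 0 ≤ m) :
    ∑ κ' ∈ range (Kc + 1), ∑ _k' ∈ pos (Wu mm κ' j) x y,
      ∑ α' ∈ (range (Aj + 1)).filter (fun α' => α + Nat.dist κ' κ ≤ α'),
        m * (Wu mm κ' j : ℝ) * Real.exp (-lam * ((D * (α' - α) : ℕ) : ℝ)) ≤
      m * (20 / 9 * ((y - x : ℕ) : ℝ)) := by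
  have h1 : ∀ κ' ∈ range (Kc + 1), ∑ _k' ∈ pos (Wu mm κ' j) x y,
      ∑ α' ∈ (range (Aj + 1)).filter (fun α' => α + Nat.dist κ' κ ≤ α'),
        m * (Wu mm κ' j : ℝ) * Real.exp (-lam * ((D * (α' - α) : ℕ) : ℝ)) ≤
      m * ((y - x : ℕ) : ℝ) * (4 / 3 * (1 / 4 : ℝ) ^ Nat.dist κ' κ) := by
    intro κ' _
    rw [Finset.sum_const, nsmul_eq_mul, ← Finset.mul_sum]
    have h2 : ∑ α' ∈ (range (Aj + 1)).filter (fun α' => α + Nat.dist κ' κ ≤ α'),
        Real.exp (-lam * ((D * (α' - α) : ℕ) : ℝ)) ≤ 4 / 3 * (1 / 4 : ℝ) ^ Nat.dist κ' κ := by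
      refine le_trans (Finset.sum_le_sum fun α' _ => ?_) (sum_quarter_tail (Aj + 1) α _)
      have : Real.exp (-lam * ((D * (α' - α) : ℕ) : ℝ)) = Real.exp (-lam * D) ^ (α' - α) := by
        rw [← Real.exp_nat_mul]; congr 1; push_cast; ring
      rw [this]
      exact pow_le_pow_left₀ (Real.exp_pos _).le hD _
    have h3 : ((pos (Wu mm κ' j) x y).card : ℝ) * (Wu mm κ' j : ℝ) ≤ ((y - x : ℕ) : ℝ) := by
      exact_mod_cast card_pos_mul (Wu mm κ' j) x y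
    have h4 : (0 : ℝ) ≤ ∑ α' ∈ (range (Aj + 1)).filter (fun α' => α + Nat.dist κ' κ ≤ α'),
        Real.exp (-lam * ((D * (α' - α) : ℕ) : ℝ)) := Finset.sum_nonneg fun _ _ =>
          (Real.exp_pos _).le
    calc ((pos (Wu mm κ' j) x y).card : ℝ) * (m * (Wu mm κ' j : ℝ) *
          ∑ α' ∈ (range (Aj + 1)).filter (fun α' => α + Nat.dist κ' κ ≤ α'),
            Real.exp (-lam * ((D * (α' - α) : ℕ) : ℝ)))
        = m * (((pos (Wu mm κ' j) x y).card : ℝ) * (Wu mm κ' j : ℝ)) *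
          ∑ α' ∈ (range (Aj + 1)).filter (fun α' => α + Nat.dist κ' κ ≤ α'),
            Real.exp (-lam * ((D * (α' - α) : ℕ) : ℝ)) := by ring
      _ ≤ m * ((y - x : ℕ) : ℝ) * (4 / 3 * (1 / 4 : ℝ) ^ Nat.dist κ' κ) := by gcongr
  refine (Finset.sum_le_sum h1).trans ?_
  rw [← Finset.mul_sum, ← Finset.mul_sum]
  have h5 := sum_quarter κ (Kc + 1)
  have h6 : 0 ≤ m * ((y - x : ℕ) : ℝ) := by positivity
  nlinarith

/-! ### Labels of descendants -/

section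

variable {m ℓ μ B w0 J S H Kc D1 : ℕ}

/-- Class and accumulated variation of the descendants. -/
theorem desc_cls : ∀ (e j a x : ℕ), x ∈ (clsPar m ℓ μ B w0 J S H Kc D1).desc j e a →
    ac a + Nat.dist (cl x) (cl a) ≤ ac x ∧ (cl a ≤ Kc → cl x ≤ Kc)
  | 0, _, a, x, h => by
    have : x = a := by simpa [Par.desc] using h
    rw [this, Nat.dist_self]; simp
  | e + 1, j, a, x, h => by
    obtain ⟨a', h1, h2⟩ := mem_biUnion.1 (show x ∈ ((clsPar m ℓ μ B w0 J S H Kc D1).kids j a).biUnion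
      fun a' => (clsPar m ℓ μ B w0 J S H Kc D1).desc (j - 1) e a' from h)
    obtain ⟨h3, h4⟩ := desc_cls e (j - 1) a' x h2
    obtain ⟨g1, -, -, -, g5⟩ := mem_kids.1 h1
    refine ⟨?_, fun _ => h4 g1⟩
    have := Nat.dist.triangle_inequality (cl x) (cl a') (cl a)
    omega

theorem penOK_cls : PenOK (clsPar m ℓ μ B w0 J S H Kc D1) := by
  intro j e a x hx
  obtain ⟨a', h1, h2⟩ := mem_biUnion.1 (show x ∈ ((clsPar m ℓ μ B w0 J S H Kc D1).kids j a).biUnion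
      fun a' => (clsPar m ℓ μ B w0 J S H Kc D1).desc (j - 1) e a' from hx)
  exact ⟨a', h1, h2, (pen_add h1 h2).le⟩

variable {mc : Mach} {ω : Rnd} {vis hid : Leaf}

/-- The children of the regions of a family are in the families of the children slabs. -/
theorem kids_Fs {j x y κ α i κ' k' α' Aj t : ℕ} {b : ℤ} {rd0 : ℕ → RSet}
    (hκ' : κ' ≤ Kc) (hk' : k' ∈ pos (Wu m κ' (j + 1)) x y) (hα' : α' ≤ Aj)
    (hα : α + Nat.dist κ' κ ≤ α') {a' : ℕ} (ha' : a' ∈ (clsPar m ℓ μ B w0 J S H Kc D1).kids (j + 1) (enc κ' k' α')) :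
    rd0 j i a' (b - (D1 * (α' - α) : ℕ) - t - (clsPar m ℓ μ B w0 J S H Kc D1).pen (j + 1) 1 (enc κ' k' α') a') ⊆
      Fs m Kc D1 (Aj + Kc) (rd0 j) j x y κ α i (b - t) := by
  intro e he
  obtain ⟨g1, g2, g3, g4, g5⟩ := mem_kids.1 ha'
  simp only [cl_enc, bx_enc, ac_enc] at g2 g3 g4 g5
  have hpen : (clsPar m ℓ μ B w0 J S H Kc D1).pen (j + 1) 1 (enc κ' k' α') a' = D1 * (ac a' - α') := by
    show D1 * (ac a' - ac (enc κ' k' α')) = _
    rw [ac_enc]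
  rw [hpen] at he
  have hW : Wu m κ' (j + 1) = 2 ^ (κ' + m - cl a') * Wu m (cl a') j := wd_succ g2
  obtain ⟨q1, q2, q3⟩ := mem_filter.1 hk'
  refine mem_Fs.2 ⟨cl a', g1, bx a', ?_, ac a', ?_, ?_, ?_⟩
  · refine mem_pos_of (Wu_pos m _ _) ?_ ?_
    · calc x ≤ k' * Wu m κ' (j + 1) := q2
        _ = k' * 2 ^ (κ' + m - cl a') * Wu m (cl a') j := by rw [hW]; ring
        _ ≤ _ := Nat.mul_le_mul_right _ g3
    · calc (bx a' + 2) * Wu m (cl a') j ≤ (k' + 2) * 2 ^ (κ' + m - cl a') * Wu m (cl a') j :=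
            Nat.mul_le_mul_right _ g4
        _ = (k' + 2) * Wu m κ' (j + 1) := by rw [hW]; ring
        _ ≤ y := q3
  · have h9 : Nat.dist (cl a') κ' ≤ max (cl a') κ' := by unfold Nat.dist; omega
    omega
  · have := Nat.dist.triangle_inequality (cl a') κ' κ
    omega
  · rw [enc_eta]
    have h11 : (b - (D1 * (α' - α) : ℕ) - t - (D1 * (ac a' - α') : ℕ) : ℤ) =
        b - t - (D1 * (ac a' - α) : ℕ) := by
      have h12 : D1 * (ac a' - α) = D1 * (α' - α) + D1 * (ac a' - α') := by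
        rw [← Nat.mul_add]; congr 1; omega
      rw [h12]; push_cast; ring
    rw [← h11]; exact he

/-- The width of the class of a descendant, discounted by the penalty. -/
theorem Wu_pen_le {lam : ℝ} (hD : Real.exp (-lam * D1) ≤ 1 / 4) (κ κ' u j : ℕ)
    (hu : Nat.dist κ' κ ≤ u) :
    (Wu m κ' j : ℝ) * Real.exp (-lam * ((D1 * u : ℕ) : ℝ)) ≤ Wu m κ j := by
  have h1 : Real.exp (-lam * ((D1 * u : ℕ) : ℝ)) ≤ (1 / 4 : ℝ) ^ u := by
    have : Real.exp (-lam * ((D1 * u : ℕ) : ℝ)) = Real.exp (-lam * D1) ^ u := by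
      rw [← Real.exp_nat_mul]; congr 1; push_cast; ring
    rw [this]
    exact pow_le_pow_left₀ (Real.exp_pos _).le hD u
  have h2 : (2 : ℝ) ^ κ' ≤ 2 ^ κ * 2 ^ u := by
    rw [← pow_add]
    refine pow_le_pow_right₀ (by norm_num) ?_
    unfold Nat.dist at hu; omega
  have h3 : (2 : ℝ) ^ u * (1 / 4 : ℝ) ^ u ≤ 1 := by
    rw [← mul_pow]; exact pow_le_one₀ (by norm_num) (by norm_num)
  have e1 : (Wu m κ' j : ℝ) = 2 ^ κ' * (2 ^ m) ^ j := by unfold Wu wd; push_cast; ring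
  have e2 : (Wu m κ j : ℝ) = 2 ^ κ * (2 ^ m) ^ j := by unfold Wu wd; push_cast; ring
  rw [e1, e2]
  have h4 : (0 : ℝ) ≤ ((2 : ℝ) ^ m) ^ j := by positivity
  have h5 : (0 : ℝ) ≤ (1 / 4 : ℝ) ^ u := by positivity
  have h6 : (0 : ℝ) < 2 ^ κ := by positivity
  calc (2 : ℝ) ^ κ' * (2 ^ m) ^ j * Real.exp (-lam * ((D1 * u : ℕ) : ℝ))
      ≤ (2 ^ κ * 2 ^ u) * (2 ^ m) ^ j * (1 / 4 : ℝ) ^ u := by gcongr
    _ = 2 ^ κ * (2 ^ m) ^ j * (2 ^ u * (1 / 4 : ℝ) ^ u) := by ring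
    _ ≤ 2 ^ κ * (2 ^ m) ^ j * 1 := by gcongr
    _ = _ := by ring

/-- The cells on the lanes of the last rounds of one region. -/
noncomputable def lanes (P : Par) (mc : Mach) (ω : Rnd) (vis hid : Leaf) (j i a : ℕ) (b : ℤ) :
    Finset (ℕ × ℕ) :=
  (sc P j).biUnion fun h => (range (h * mc.cnt (Nat.log 2 h))).biUnion fun k =>
    (range (P.M ^ h)).biUnion fun u => rd P mc ω vis hid (j - h) (P.M ^ h * i + u)
      (ln P mc ω vis hid j i a b h k u)
      (b - H123.Xi P.M (xs P ω) h (j - h) (P.M ^ h * i + u) -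
        P.pen j h a (ln P mc ω vis hid j i a b h k u) + h)

/-- Weight of the lanes of one region, given the bound for the lower levels. -/
theorem wS_lanes_le (hL : Area.LaneOK (clsPar m ℓ μ B w0 J S H Kc D1) mc) {lam C : ℝ} (hC : 1 ≤ C)
    (hD : Real.exp (-lam * D1) ≤ 1 / 4) {j : ℕ}
    (ih : ∀ j' ≤ j, ∀ Aj x y κ α i b,
      wS (Fs m Kc D1 Aj (rd (clsPar m ℓ μ B w0 J S H Kc D1) mc ω vis hid j') j' x y κ α i b) ≤
        3 * ((y - x : ℕ) : ℝ) * C ^ j' * Real.exp (lam * b) * Wt (2 ^ m) (xs (clsPar m ℓ μ B w0 J S H Kc D1) ω) lam j' i)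
    (i a : ℕ) (ha : cl a ≤ Kc) (b : ℤ) :
    wS (lanes (clsPar m ℓ μ B w0 J S H Kc D1) mc ω vis hid (j + 1) i a b) ≤
      (∑ s ∈ range S, ((2 ^ s * mc.cnt s : ℕ) : ℝ) * Real.exp (lam * (2 ^ s : ℕ)) /
        ((2 : ℝ) ^ m) ^ 2 ^ s) *
      (6 * (Wu m (cl a) (j + 1) : ℝ) * C ^ j * Real.exp (lam * b) *
        Wt (2 ^ m) (xs (clsPar m ℓ μ B w0 J S H Kc D1) ω) lam (j + 1) i) := by
  have hM : 0 < 2 ^ m := by positivity
  have hC0 : 0 ≤ C := by linarith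
  have hW0 := Wt_nonneg (2 ^ m) (xs (clsPar m ℓ μ B w0 J S H Kc D1) ω) lam (j + 1) i
  have hPM : (clsPar m ℓ μ B w0 J S H Kc D1).M = 2 ^ m := rfl
  unfold lanes
  refine (wS_biUnion _ _).trans ?_
  -- one height
  have key : ∀ h ∈ sc (clsPar m ℓ μ B w0 J S H Kc D1) (j + 1), wS ((range (h * mc.cnt (Nat.log 2 h))).biUnion fun k =>
      (range ((clsPar m ℓ μ B w0 J S H Kc D1).M ^ h)).biUnion fun u => rd (clsPar m ℓ μ B w0 J S H Kc D1) mc ω vis hid (j + 1 - h) ((clsPar m ℓ μ B w0 J S H Kc D1).M ^ h * i + u)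
        (ln (clsPar m ℓ μ B w0 J S H Kc D1) mc ω vis hid (j + 1) i a b h k u)
        (b - H123.Xi (clsPar m ℓ μ B w0 J S H Kc D1).M (xs (clsPar m ℓ μ B w0 J S H Kc D1) ω) h (j + 1 - h) ((clsPar m ℓ μ B w0 J S H Kc D1).M ^ h * i + u) -
          (clsPar m ℓ μ B w0 J S H Kc D1).pen (j + 1) h a (ln (clsPar m ℓ μ B w0 J S H Kc D1) mc ω vis hid (j + 1) i a b h k u) + h)) ≤
      (((h * mc.cnt (Nat.log 2 h) : ℕ) : ℝ) * Real.exp (lam * h) / ((2 : ℝ) ^ m) ^ h) *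
      (6 * (Wu m (cl a) (j + 1) : ℝ) * C ^ j * Real.exp (lam * b) *
        Wt (2 ^ m) (xs (clsPar m ℓ μ B w0 J S H Kc D1) ω) lam (j + 1) i) := by
    intro h hh
    obtain ⟨s, hs, hd, hj, hs', hlog⟩ := sc_spec hh
    have hle : h ≤ j + 1 := by rw [hs']; exact Nat.le_of_dvd hj hd
    have hh1 : 1 ≤ h := by rw [hs']; exact Nat.one_le_two_pow
    refine (wS_biUnion _ _).trans ?_
    have hsplit := Wt_split hM (xs (clsPar m ℓ μ B w0 J S H Kc D1) ω) lam (j + 1 - h) h i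
    rw [Nat.sub_add_cancel hle] at hsplit
    have key1 : ∀ k ∈ range (h * mc.cnt (Nat.log 2 h)), wS ((range ((clsPar m ℓ μ B w0 J S H Kc D1).M ^ h)).biUnion fun u =>
        rd (clsPar m ℓ μ B w0 J S H Kc D1) mc ω vis hid (j + 1 - h) ((clsPar m ℓ μ B w0 J S H Kc D1).M ^ h * i + u)
        (ln (clsPar m ℓ μ B w0 J S H Kc D1) mc ω vis hid (j + 1) i a b h k u)
        (b - H123.Xi (clsPar m ℓ μ B w0 J S H Kc D1).M (xs (clsPar m ℓ μ B w0 J S H Kc D1) ω) h (j + 1 - h) ((clsPar m ℓ μ B w0 J S H Kc D1).M ^ h * i + u) -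
          (clsPar m ℓ μ B w0 J S H Kc D1).pen (j + 1) h a (ln (clsPar m ℓ μ B w0 J S H Kc D1) mc ω vis hid (j + 1) i a b h k u) + h)) ≤
        6 * (Wu m (cl a) (j + 1 - h) : ℝ) * C ^ j * Real.exp (lam * h) * Real.exp (lam * b) *
          Wt (2 ^ m) (xs (clsPar m ℓ μ B w0 J S H Kc D1) ω) lam (j + 1) i := by
      intro k hk
      refine (wS_biUnion _ _).trans ?_
      rw [hsplit, Finset.mul_sum, hPM]
      refine Finset.sum_le_sum fun u hu => ?_
      have hx := ln_desc (P := (clsPar m ℓ μ B w0 J S H Kc D1)) (ω := ω) (vis := vis) (hid := hid) (i := i) (a := a) (b := b) hL hh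
        (mem_range.1 hk) (u := u) (by rw [hPM]; exact mem_range.1 hu)
      set x := ln (clsPar m ℓ μ B w0 J S H Kc D1) mc ω vis hid (j + 1) i a b h k u with hxdef
      obtain ⟨hx1, hx2⟩ := desc_cls h (j + 1) a x hx
      have hpen : (clsPar m ℓ μ B w0 J S H Kc D1).pen (j + 1) h a x = D1 * (ac x - ac a) := rfl
      have e1 := wS_mono (rd_subset_Fs (m := m) (Kc := Kc) (D := D1)
        (rd (clsPar m ℓ μ B w0 J S H Kc D1) mc ω vis hid (j + 1 - h)) (j + 1 - h) ((2 ^ m) ^ h * i + u) x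
        (b - H123.Xi (2 ^ m) (xs (clsPar m ℓ μ B w0 J S H Kc D1) ω) h (j + 1 - h) ((2 ^ m) ^ h * i + u) -
          (clsPar m ℓ μ B w0 J S H Kc D1).pen (j + 1) h a x + h) (hx2 ha))
      refine e1.trans ((ih (j + 1 - h) (by omega) _ _ _ _ _ _ _).trans ?_)
      have e3 : (bx x + 2) * Wu m (cl x) (j + 1 - h) - bx x * Wu m (cl x) (j + 1 - h) =
          2 * Wu m (cl x) (j + 1 - h) := by
        rw [← Nat.sub_mul]; congr 1; omega
      have e6 : Real.exp (lam * ((b - H123.Xi (2 ^ m) (xs (clsPar m ℓ μ B w0 J S H Kc D1) ω) h (j + 1 - h)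
            ((2 ^ m) ^ h * i + u) - (clsPar m ℓ μ B w0 J S H Kc D1).pen (j + 1) h a x + h : ℤ) : ℝ)) =
          Real.exp (lam * h) * Real.exp (lam * b) *
          Real.exp (-lam * (H123.Xi (2 ^ m) (xs (clsPar m ℓ μ B w0 J S H Kc D1) ω) h (j + 1 - h)
            ((2 ^ m) ^ h * i + u) : ℝ)) * Real.exp (-lam * ((D1 * (ac x - ac a) : ℕ) : ℝ)) := by
        rw [hpen, ← Real.exp_add, ← Real.exp_add, ← Real.exp_add]
        congr 1
        push_cast
        ring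
      have e7 := Wu_pen_le (m := m) (D1 := D1) hD (cl a) (cl x) (ac x - ac a) (j + 1 - h)
        (by omega)
      have e8 : C ^ (j + 1 - h) ≤ C ^ j := pow_le_pow_right₀ hC (by omega)
      have hWW := Wt_nonneg (2 ^ m) (xs (clsPar m ℓ μ B w0 J S H Kc D1) ω) lam (j + 1 - h) ((2 ^ m) ^ h * i + u)
      rw [e3, e6]
      have e9 : ((2 * Wu m (cl x) (j + 1 - h) : ℕ) : ℝ) = 2 * (Wu m (cl x) (j + 1 - h) : ℝ) := by
        push_cast; ring
      rw [e9]
      calc 3 * (2 * (Wu m (cl x) (j + 1 - h) : ℝ)) * C ^ (j + 1 - h) *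
            (Real.exp (lam * h) * Real.exp (lam * b) *
              Real.exp (-lam * (H123.Xi (2 ^ m) (xs (clsPar m ℓ μ B w0 J S H Kc D1) ω) h (j + 1 - h)
                ((2 ^ m) ^ h * i + u) : ℝ)) * Real.exp (-lam * ((D1 * (ac x - ac a) : ℕ) : ℝ))) *
            Wt (2 ^ m) (xs (clsPar m ℓ μ B w0 J S H Kc D1) ω) lam (j + 1 - h) ((2 ^ m) ^ h * i + u)
          = 6 * ((Wu m (cl x) (j + 1 - h) : ℝ) *
              Real.exp (-lam * ((D1 * (ac x - ac a) : ℕ) : ℝ))) * C ^ (j + 1 - h) *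
            Real.exp (lam * h) * Real.exp (lam * b) *
            (Real.exp (-lam * (H123.Xi (2 ^ m) (xs (clsPar m ℓ μ B w0 J S H Kc D1) ω) h (j + 1 - h)
                ((2 ^ m) ^ h * i + u) : ℝ)) *
              Wt (2 ^ m) (xs (clsPar m ℓ μ B w0 J S H Kc D1) ω) lam (j + 1 - h) ((2 ^ m) ^ h * i + u)) := by ring
        _ ≤ 6 * (Wu m (cl a) (j + 1 - h) : ℝ) * C ^ j * Real.exp (lam * h) *
            Real.exp (lam * b) *
            (Real.exp (-lam * (H123.Xi (2 ^ m) (xs (clsPar m ℓ μ B w0 J S H Kc D1) ω) h (j + 1 - h)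
                ((2 ^ m) ^ h * i + u) : ℝ)) *
              Wt (2 ^ m) (xs (clsPar m ℓ μ B w0 J S H Kc D1) ω) lam (j + 1 - h) ((2 ^ m) ^ h * i + u)) := by gcongr
    refine (Finset.sum_le_sum key1).trans (le_of_eq ?_)
    rw [Finset.sum_const, card_range, nsmul_eq_mul]
    have e15 : (Wu m (cl a) (j + 1) : ℝ) = (Wu m (cl a) (j + 1 - h) : ℝ) * ((2 : ℝ) ^ m) ^ h := by
      have := Wu_add m (cl a) (j + 1 - h) h
      rw [Nat.sub_add_cancel hle] at this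
      rw [this]; push_cast; ring
    rw [e15]
    have e16 : (((2 : ℝ) ^ m) ^ h) ≠ 0 := by positivity
    field_simp
  refine (Finset.sum_le_sum key).trans ?_
  rw [← Finset.sum_mul]
  refine mul_le_mul_of_nonneg_right ?_ (by positivity)
  unfold sc
  rw [if_neg (by omega), Finset.sum_image]
  · have h2 : ∑ s ∈ (range S).filter (fun s => 2 ^ s ∣ j + 1),
        ((2 ^ s * mc.cnt (Nat.log 2 (2 ^ s)) : ℕ) : ℝ) * Real.exp (lam * ((2 ^ s : ℕ) : ℝ)) /
          ((2 : ℝ) ^ m) ^ 2 ^ s =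
        ∑ s ∈ (range S).filter (fun s => 2 ^ s ∣ j + 1),
          ((2 ^ s * mc.cnt s : ℕ) : ℝ) * Real.exp (lam * (2 ^ s : ℕ)) / ((2 : ℝ) ^ m) ^ 2 ^ s := by
      refine Finset.sum_congr rfl fun s _ => ?_
      rw [Nat.log_pow (by norm_num) s]
    refine h2.le.trans ?_
    refine Finset.sum_le_sum_of_subset_of_nonneg (Finset.filter_subset _ _) ?_
    intro s _ _
    positivity
  · intro s _ s' _ hss
    exact Nat.pow_right_injective le_rfl hss

/-- The recursion of the families. -/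
theorem Fs_succ (hL : Area.LaneOK (clsPar m ℓ μ B w0 J S H Kc D1) mc) {j : ℕ} (Aj x y κ α i : ℕ) (b : ℤ) :
    Fs m Kc D1 Aj (rd (clsPar m ℓ μ B w0 J S H Kc D1) mc ω vis hid (j + 1)) (j + 1) x y κ α i b ⊆
      ((range (2 ^ m)).biUnion fun u =>
        Fs m Kc D1 (Aj + Kc) (rd (clsPar m ℓ μ B w0 J S H Kc D1) mc ω vis hid j) j x y κ α (2 ^ m * i + u)
          (b - xs (clsPar m ℓ μ B w0 J S H Kc D1) ω j (2 ^ m * i + u))) ∪
        (range (Kc + 1)).biUnion fun κ' => (pos (Wu m κ' (j + 1)) x y).biUnion fun k' =>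
          ((range (Aj + 1)).filter fun α' => α + Nat.dist κ' κ ≤ α').biUnion fun α' =>
            lanes (clsPar m ℓ μ B w0 J S H Kc D1) mc ω vis hid (j + 1) i (enc κ' k' α') (b - (D1 * (α' - α) : ℕ)) := by
  intro e he
  have hM : 0 < (clsPar m ℓ μ B w0 J S H Kc D1).M := by show 0 < 2 ^ m; positivity
  obtain ⟨κ', h1, k', h2, α', h3, h4, h5⟩ := mem_Fs.1 he
  rcases mem_union.1 (rd_sub hM penOK_cls hL j i (enc κ' k' α') _ h5) with h6 | h6
  · refine mem_union_left _ ?_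
    obtain ⟨u, hu, h7⟩ := mem_biUnion.1 h6
    obtain ⟨a', ha', h8⟩ := mem_biUnion.1 h7
    refine mem_biUnion.2 ⟨u, hu, ?_⟩
    exact kids_Fs (rd0 := rd (clsPar m ℓ μ B w0 J S H Kc D1) mc ω vis hid) h1 h2 h3 h4 ha' h8
  · refine mem_union_right _ (mem_biUnion.2 ⟨κ', mem_range.2 (by omega),
      mem_biUnion.2 ⟨k', h2, mem_biUnion.2 ⟨α', mem_filter.2 ⟨mem_range.2 (by omega), h4⟩, ?_⟩⟩⟩)
    exact h6

/-- **Area of a family**, pathwise in the jitters. -/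
theorem wS_Fs_le (hL : Area.LaneOK (clsPar m ℓ μ B w0 J S H Kc D1) mc) {lam C : ℝ} (hlam : 0 ≤ lam) (hC : 1 ≤ C)
    (hD : Real.exp (-lam * D1) ≤ 1 / 4)
    (hCb : 1 + ∑ s ∈ range S, 5 * ((2 ^ s * mc.cnt s : ℕ) : ℝ) * Real.exp (lam * (2 ^ s : ℕ)) /
      ((2 : ℝ) ^ m) ^ 2 ^ s ≤ C) :
    ∀ (j Aj x y κ α i : ℕ) (b : ℤ),
      wS (Fs m Kc D1 Aj (rd (clsPar m ℓ μ B w0 J S H Kc D1) mc ω vis hid j) j x y κ α i b) ≤
        3 * ((y - x : ℕ) : ℝ) * C ^ j * Real.exp (lam * b) * Wt (2 ^ m) (xs (clsPar m ℓ μ B w0 J S H Kc D1) ω) lam j i := by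
  have hM : 0 < 2 ^ m := by positivity
  have hC0 : 0 ≤ C := by linarith
  intro j
  induction j using Nat.strong_induction_on with
  | _ j ih =>
  intro Aj x y κ α i b
  rcases Nat.eq_zero_or_pos j with rfl | hj
  · -- leaves
    have hW : Wt (2 ^ m) (xs (clsPar m ℓ μ B w0 J S H Kc D1) ω) lam 0 i = 1 := by simp [Wt, H123.Xi_zero]
    rw [hW, pow_zero, mul_one, mul_one]
    unfold Fs
    have h1 : ∀ κ' k' α', wS (rd (clsPar m ℓ μ B w0 J S H Kc D1) mc ω vis hid 0 i (enc κ' k' α') (b - (D1 * (α' - α) : ℕ))) ≤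
        Real.exp (lam * b) * (Wu m κ' 0 : ℝ) * Real.exp (-lam * ((D1 * (α' - α) : ℕ) : ℝ)) := by
      intro κ' k' α'
      rw [rd_zero]
      split_ifs with hb
      · rw [wS_empty]; positivity
      · have e1 : wS {(i, enc κ' k' α')} = 2 ^ κ' := by simp [wS]
        have e2 : (Wu m κ' 0 : ℝ) = 2 ^ κ' := by unfold Wu wd; push_cast; ring
        have e3 : Real.exp (lam * b) * Real.exp (-lam * ((D1 * (α' - α) : ℕ) : ℝ)) =
            Real.exp (lam * ((b - (D1 * (α' - α) : ℕ) : ℤ) : ℝ)) := by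
          rw [← Real.exp_add]; congr 1; push_cast; ring
        have e4 : 1 ≤ Real.exp (lam * ((b - (D1 * (α' - α) : ℕ) : ℤ) : ℝ)) := by
          apply Real.one_le_exp
          have : (0 : ℝ) ≤ ((b - (D1 * (α' - α) : ℕ) : ℤ) : ℝ) := by
            exact_mod_cast not_lt.1 hb
          positivity
        rw [e1, e2]
        calc (2 : ℝ) ^ κ' = 2 ^ κ' * 1 := by ring
          _ ≤ 2 ^ κ' * (Real.exp (lam * b) * Real.exp (-lam * ((D1 * (α' - α) : ℕ) : ℝ))) := by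
            rw [e3]; gcongr
          _ = _ := by ring
    refine (wS_biUnion _ _).trans ((Finset.sum_le_sum fun κ' _ => (wS_biUnion _ _).trans
      (Finset.sum_le_sum fun k' _ => (wS_biUnion _ _).trans
        (Finset.sum_le_sum fun α' _ => h1 κ' k' α'))).trans ?_)
    refine (sum_family (mm := m) hD Kc Aj 0 x y κ α (Real.exp_pos (lam * b)).le).trans ?_
    have h5 : (0 : ℝ) ≤ ((y - x : ℕ) : ℝ) := Nat.cast_nonneg _
    have h6 := Real.exp_pos (lam * b)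
    nlinarith [mul_nonneg h5 h6.le]
  · obtain ⟨j, rfl⟩ : ∃ k, j = k + 1 := ⟨j - 1, by omega⟩
    have hyx : (0 : ℝ) ≤ ((y - x : ℕ) : ℝ) := Nat.cast_nonneg _
    have hW0 := Wt_nonneg (2 ^ m) (xs (clsPar m ℓ μ B w0 J S H Kc D1) ω) lam (j + 1) i
    set L : ℝ := ∑ s ∈ range S, ((2 ^ s * mc.cnt s : ℕ) : ℝ) * Real.exp (lam * (2 ^ s : ℕ)) /
        ((2 : ℝ) ^ m) ^ 2 ^ s with hLdef
    have hL0 : 0 ≤ L := Finset.sum_nonneg fun s _ => by positivity
    have hLC : 1 + 5 * L ≤ C := by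
      refine le_trans (le_of_eq ?_) hCb
      rw [hLdef, Finset.mul_sum]
      congr 1
      exact Finset.sum_congr rfl fun s _ => by ring
    refine (wS_mono (Fs_succ hL Aj x y κ α i b)).trans ((wS_union _ _).trans ?_)
    -- baseline
    have hb1 : wS ((range (2 ^ m)).biUnion fun u =>
        Fs m Kc D1 (Aj + Kc) (rd (clsPar m ℓ μ B w0 J S H Kc D1) mc ω vis hid j) j x y κ α (2 ^ m * i + u)
          (b - xs (clsPar m ℓ μ B w0 J S H Kc D1) ω j (2 ^ m * i + u))) ≤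
        3 * ((y - x : ℕ) : ℝ) * C ^ j * Real.exp (lam * b) *
          Wt (2 ^ m) (xs (clsPar m ℓ μ B w0 J S H Kc D1) ω) lam (j + 1) i := by
      refine (wS_biUnion _ _).trans ?_
      rw [Wt_split hM (xs (clsPar m ℓ μ B w0 J S H Kc D1) ω) lam j 1 i, Finset.mul_sum, pow_one]
      refine Finset.sum_le_sum fun u _ => ?_
      refine (ih j (by omega) (Aj + Kc) x y κ α (2 ^ m * i + u) _).trans (le_of_eq ?_)
      rw [Xi_one]
      have e1 : Real.exp (lam * ((b - xs (clsPar m ℓ μ B w0 J S H Kc D1) ω j (2 ^ m * i + u) : ℤ) : ℝ)) =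
          Real.exp (lam * b) * Real.exp (-lam * (xs (clsPar m ℓ μ B w0 J S H Kc D1) ω j (2 ^ m * i + u) : ℝ)) := by
        rw [← Real.exp_add]; congr 1; push_cast; ring
      rw [e1]; ring
    -- lanes
    have hb2 : wS ((range (Kc + 1)).biUnion fun κ' =>
        (pos (Wu m κ' (j + 1)) x y).biUnion fun k' =>
          ((range (Aj + 1)).filter fun α' => α + Nat.dist κ' κ ≤ α').biUnion fun α' =>
            lanes (clsPar m ℓ μ B w0 J S H Kc D1) mc ω vis hid (j + 1) i (enc κ' k' α') (b - (D1 * (α' - α) : ℕ))) ≤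
        (L * (6 * C ^ j * Real.exp (lam * b) * Wt (2 ^ m) (xs (clsPar m ℓ μ B w0 J S H Kc D1) ω) lam (j + 1) i)) *
          (20 / 9 * ((y - x : ℕ) : ℝ)) := by
      have hc : 0 ≤ L * (6 * C ^ j * Real.exp (lam * b) *
          Wt (2 ^ m) (xs (clsPar m ℓ μ B w0 J S H Kc D1) ω) lam (j + 1) i) := by positivity
      refine le_trans ?_ (sum_family (mm := m) hD Kc Aj (j + 1) x y κ α hc)
      refine (wS_biUnion _ _).trans (Finset.sum_le_sum fun κ' hκ' => (wS_biUnion _ _).trans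
        (Finset.sum_le_sum fun k' _ => (wS_biUnion _ _).trans
          (Finset.sum_le_sum fun α' _ => ?_)))
      have hκ'' := mem_range.1 hκ'
      refine (wS_lanes_le hL hC hD (fun j' hj' Aj x y κ α i b => ih j' (by omega) Aj x y κ α i b)
        i (enc κ' k' α') (by rw [cl_enc]; omega) _).trans (le_of_eq ?_)
      rw [cl_enc]
      have e1 : Real.exp (lam * ((b - (D1 * (α' - α) : ℕ) : ℤ) : ℝ)) =
          Real.exp (lam * b) * Real.exp (-lam * ((D1 * (α' - α) : ℕ) : ℝ)) := by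
        rw [← Real.exp_add]; congr 1; push_cast; ring
      rw [e1, ← hLdef]; ring
    refine (add_le_add hb1 hb2).trans ?_
    have hX : 0 ≤ 3 * ((y - x : ℕ) : ℝ) * C ^ j * Real.exp (lam * b) *
          Wt (2 ^ m) (xs (clsPar m ℓ μ B w0 J S H Kc D1) ω) lam (j + 1) i := by positivity
    calc 3 * ((y - x : ℕ) : ℝ) * C ^ j * Real.exp (lam * b) *
          Wt (2 ^ m) (xs (clsPar m ℓ μ B w0 J S H Kc D1) ω) lam (j + 1) i +
        (L * (6 * C ^ j * Real.exp (lam * b) * Wt (2 ^ m) (xs (clsPar m ℓ μ B w0 J S H Kc D1) ω) lam (j + 1) i)) *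
          (20 / 9 * ((y - x : ℕ) : ℝ))
        = (3 * ((y - x : ℕ) : ℝ) * C ^ j * Real.exp (lam * b) *
          Wt (2 ^ m) (xs (clsPar m ℓ μ B w0 J S H Kc D1) ω) lam (j + 1) i) * (1 + 40 / 9 * L) := by ring
      _ ≤ (3 * ((y - x : ℕ) : ℝ) * C ^ j * Real.exp (lam * b) *
          Wt (2 ^ m) (xs (clsPar m ℓ μ B w0 J S H Kc D1) ω) lam (j + 1) i) * C :=
        mul_le_mul_of_nonneg_left (by linarith) hX
      _ = _ := by rw [pow_succ]; ring

/-- **Area of the read set of a region**: cells of class `κ` weighted by `2 ^ κ`. -/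
theorem wS_rd_le (hL : Area.LaneOK (clsPar m ℓ μ B w0 J S H Kc D1) mc) {lam C : ℝ} (hlam : 0 ≤ lam) (hC : 1 ≤ C)
    (hD : Real.exp (-lam * D1) ≤ 1 / 4)
    (hCb : 1 + ∑ s ∈ range S, 5 * ((2 ^ s * mc.cnt s : ℕ) : ℝ) * Real.exp (lam * (2 ^ s : ℕ)) /
      ((2 : ℝ) ^ m) ^ 2 ^ s ≤ C) (j i a : ℕ) (ha : cl a ≤ Kc) (b : ℤ) :
    wS (rd (clsPar m ℓ μ B w0 J S H Kc D1) mc ω vis hid j i a b) ≤
      6 * (2 : ℝ) ^ cl a * ((2 : ℝ) ^ m) ^ j * C ^ j * Real.exp (lam * b) *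
        Wt (2 ^ m) (xs (clsPar m ℓ μ B w0 J S H Kc D1) ω) lam j i := by
  refine (wS_mono (rd_subset_Fs (m := m) (Kc := Kc) (D := D1) (rd (clsPar m ℓ μ B w0 J S H Kc D1) mc ω vis hid j) j i a b
    ha)).trans ((wS_Fs_le hL hlam hC hD hCb j _ _ _ _ _ i b).trans (le_of_eq ?_))
  have e3 : (bx a + 2) * Wu m (cl a) j - bx a * Wu m (cl a) j = 2 * Wu m (cl a) j := by
    rw [← Nat.sub_mul]; congr 1; omega
  have e2 : (Wu m (cl a) j : ℝ) = 2 ^ cl a * (2 ^ m) ^ j := by unfold Wu wd; push_cast; ring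
  rw [e3]
  push_cast
  rw [e2]
  ring

end

open Vale.Agent.P315.H731 (av)
open Vale.Agent.P315.H659 (Ix toRnd)

/-- **Mean area over the seeds**, any index. -/
theorem av_wS_rd {m ℓ μ B w0 J S H Kc D1 n Cn q : ℕ} {mc : Mach} {vis hid : Leaf}
    (hL : Area.LaneOK (clsPar m ℓ μ B w0 J S H Kc D1) mc) (hq : 0 < q) (hJq : J + 1 ∣ q)
    {lam C : ℝ} (hlam : 0 ≤ lam) (hC : 1 ≤ C) (hD : Real.exp (-lam * D1) ≤ 1 / 4)
    (hCb : 1 + ∑ s ∈ range S, 5 * ((2 ^ s * mc.cnt s : ℕ) : ℝ) * Real.exp (lam * (2 ^ s : ℕ)) /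
      ((2 : ℝ) ^ m) ^ 2 ^ s ≤ C) (i a : ℕ) (ha : cl a ≤ Kc) (b : ℤ) :
    av (fun w : Ix n (2 ^ m) S Cn → Fin q =>
      wS (rd (clsPar m ℓ μ B w0 J S H Kc D1) mc (toRnd J w) vis hid n i a b)) ≤
      6 * (2 : ℝ) ^ cl a * (((2 : ℝ) ^ m) ^ n) ^ 2 * C ^ n *
        Real.exp (lam * b + n * (- lam * J / 2 + lam ^ 2 * J ^ 2 / 8)) := by
  have h1 := H731.av_mono (Ω := Ix n (2 ^ m) S Cn → Fin q) fun w =>
    wS_rd_le (ℓ := ℓ) (μ := μ) (B := B) (w0 := w0) (J := J) (H := H) (ω := toRnd J w)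
      (vis := vis) (hid := hid) hL hlam hC hD hCb n i a ha b
  refine h1.trans ?_
  rw [H731.av_const_mul]
  have hM : 0 < (clsPar m ℓ μ B w0 J S H Kc D1).M := by show 0 < 2 ^ m; positivity
  have h2 := Area.av_Wt (n := n) (S := S) (Cn := Cn) (q := q) (J := J)
    (P := clsPar m ℓ μ B w0 J S H Kc D1) hM hq hJq i lam
  have hPM : (clsPar m ℓ μ B w0 J S H Kc D1).M = 2 ^ m := rfl
  rw [hPM] at h2
  have hC0 : 0 ≤ C := by linarith
  have h3 : 0 ≤ 6 * (2 : ℝ) ^ cl a * ((2 : ℝ) ^ m) ^ n * C ^ n * Real.exp (lam * b) := by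
    positivity
  refine (mul_le_mul_of_nonneg_left h2 h3).trans (le_of_eq ?_)
  rw [Real.exp_add]
  push_cast
  ring

/-- **Area half of the query theorem of milestone 2**: if the index of the root is at most
`(J/2 - c) n`, the penalty is large enough and the lanes are few, the mean weight of the cells
read (a cell of class `κ` counts `2 ^ κ`) is at most
`6 * 2 ^ (class of the root) * M ^ (2 n) exp (- (c² / J²) n)`. -/
theorem area_goodM {m ℓ μ B w0 J S H Kc D1 n Cn q : ℕ} (hJ : 0 < J) {mc : Mach}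
    {vis hid : Leaf} (hL : Area.LaneOK (clsPar m ℓ μ B w0 J S H Kc D1) mc) (hq : 0 < q)
    (hJq : J + 1 ∣ q) {c : ℝ} (hc : 0 ≤ c)
    (hD : Real.exp (-(4 * c / J ^ 2) * D1) ≤ 1 / 4)
    (hC : ∑ s ∈ range S, 5 * ((2 ^ s * mc.cnt s : ℕ) : ℝ) *
      Real.exp (4 * c / J ^ 2 * (2 ^ s : ℕ)) / ((2 : ℝ) ^ m) ^ 2 ^ s ≤ c ^ 2 / J ^ 2) (i a : ℕ)
    (ha : cl a ≤ Kc) {N : ℤ} (hN : (N : ℝ) ≤ (J / 2 - c) * n) :
    av (fun w : Ix n (2 ^ m) S Cn → Fin q =>
      wS (rd (clsPar m ℓ μ B w0 J S H Kc D1) mc (toRnd J w) vis hid n i a N)) ≤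
      6 * (2 : ℝ) ^ cl a * ((((2 : ℝ) ^ m) ^ n) ^ 2 * Real.exp (- (c ^ 2 / J ^ 2) * n)) := by
  have hJ0 : (0 : ℝ) < J := by exact_mod_cast hJ
  have hlam : (0 : ℝ) ≤ 4 * c / J ^ 2 := by positivity
  have hC1 : (1 : ℝ) ≤ 1 + c ^ 2 / (J : ℝ) ^ 2 := by
    have : 0 ≤ c ^ 2 / (J : ℝ) ^ 2 := by positivity
    linarith
  refine (av_wS_rd hL hq hJq hlam hC1 hD (add_le_add le_rfl hC) i a ha N).trans ?_
  have h0 : (1 + c ^ 2 / (J : ℝ) ^ 2) ^ n ≤ Real.exp (n * (c ^ 2 / J ^ 2)) := by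
    rw [mul_comm, Real.exp_mul, Real.rpow_natCast]
    have : 1 + c ^ 2 / (J : ℝ) ^ 2 ≤ Real.exp (c ^ 2 / J ^ 2) := by
      linarith [Real.add_one_le_exp (c ^ 2 / (J : ℝ) ^ 2)]
    exact pow_le_pow_left₀ (by positivity) this n
  have h2 : n * (c ^ 2 / (J : ℝ) ^ 2) + (4 * c / (J : ℝ) ^ 2 * N + n * (- (4 * c / J ^ 2) * J / 2 +
      (4 * c / J ^ 2) ^ 2 * J ^ 2 / 8)) ≤ - (c ^ 2 / J ^ 2) * n := by
    have h1 : 4 * c / (J : ℝ) ^ 2 * N ≤ 4 * c / J ^ 2 * ((J / 2 - c) * n) :=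
      mul_le_mul_of_nonneg_left hN hlam
    have h3 : (4 * c / (J : ℝ) ^ 2) ^ 2 * J ^ 2 / 8 = 2 * (c ^ 2 / J ^ 2) := by
      field_simp; ring
    have h4 : 4 * c / (J : ℝ) ^ 2 * ((J / 2 - c) * n) =
        n * (4 * c / J ^ 2 * J / 2) - 4 * (c ^ 2 / J ^ 2) * n := by
      field_simp
    rw [h3]
    rw [h4] at h1
    nlinarith
  calc 6 * (2 : ℝ) ^ cl a * (((2 : ℝ) ^ m) ^ n) ^ 2 * (1 + c ^ 2 / (J : ℝ) ^ 2) ^ n *
        Real.exp (4 * c / (J : ℝ) ^ 2 * N +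
          n * (- (4 * c / J ^ 2) * J / 2 + (4 * c / J ^ 2) ^ 2 * J ^ 2 / 8))
      ≤ 6 * (2 : ℝ) ^ cl a * (((2 : ℝ) ^ m) ^ n) ^ 2 * Real.exp (n * (c ^ 2 / (J : ℝ) ^ 2)) *
        Real.exp (4 * c / (J : ℝ) ^ 2 * N +
          n * (- (4 * c / J ^ 2) * J / 2 + (4 * c / J ^ 2) ^ 2 * J ^ 2 / 8)) := by
        gcongr
    _ = 6 * (2 : ℝ) ^ cl a * ((((2 : ℝ) ^ m) ^ n) ^ 2 *
        Real.exp (n * (c ^ 2 / (J : ℝ) ^ 2) + (4 * c / (J : ℝ) ^ 2 * N +
          n * (- (4 * c / J ^ 2) * J / 2 + (4 * c / J ^ 2) ^ 2 * J ^ 2 / 8)))) := by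
        rw [Real.exp_add (n * (c ^ 2 / (J : ℝ) ^ 2))]; ring
    _ ≤ _ := by
        have := Real.exp_le_exp.2 h2
        gcongr

end Vale.Agent.P315.C2
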